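import Mathlib

/-!
# P164: chordal SLE traces and gauge Hausdorff measures -- definitions
-/

namespace Vale.Agent.Lib.P164

open MeasureTheory ProbabilityTheory Set
open scoped NNReal ENNReal

/-- A gauge: a continuous nondecreasing function `h : [0, ∞) → [0, ∞)` with `h 0 = 0` and
`h r > 0` for `r > 0` (only the values of `h` on `[0, ∞)` matter). -/
structure IsGauge (h : ℝ → ℝ) : Prop where
  cont : ContinuousOn h (Ici 0)
  mono : MonotoneOn h (Ici 0)
  zero : h 0 = 0
  pos : ∀ r, 0 < r → 0 < h r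

/-- The Hausdorff measure `ℋ^h` on `ℂ` with gauge `h` (Mathlib's `Measure.mkMetric`):
`ℋ^h(E) = sup_{δ > 0} inf {∑ h(diam U_j) : E ⊆ ⋃ U_j, diam U_j ≤ δ}`. -/
noncomputable def gaugeMeasure (h : ℝ → ℝ) : Measure ℂ :=
  Measure.mkMetric (fun r : ℝ≥0∞ => if r = ⊤ then ⊤ else ENNReal.ofReal (h r.toReal))

/-- The Loewner flow `∂ₛ u = 2 / (u - W s)`, `u 0 = z`, driven by `W`, exists and stays in the open
upper half-plane up to and including time `t`. -/
def Survives (W : ℝ≥0 → ℝ) (t : ℝ≥0) (z : ℂ) : Prop :=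
  ∃ u : ℝ → ℂ, u 0 = z ∧ ∀ s ∈ Icc (0 : ℝ) t, 0 < (u s).im ∧
    HasDerivWithinAt u (2 / (u s - (W s.toNNReal : ℂ))) (Icc (0 : ℝ) t) s

/-- The union of the unbounded connected components of `U`. -/
def unboundedComponent (U : Set ℂ) : Set ℂ :=
  {z | z ∈ U ∧ ¬ Bornology.IsBounded (connectedComponentIn U z)}

/-- `γ` is a continuous curve in the closed upper half-plane generating the Loewner chain driven
by `W`: for every `t`, the domain of the time-`t` Loewner map `g_t` (the set of points of the upper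
half-plane whose flow survives up to time `t`) is the unbounded component of `ℍ \ γ([0, t])`. -/
structure IsLoewnerTrace (W : ℝ≥0 → ℝ) (γ : ℝ≥0 → ℂ) : Prop where
  cont : Continuous γ
  im_nonneg : ∀ t, 0 ≤ (γ t).im
  hull : ∀ t, {z : ℂ | 0 < z.im ∧ Survives W t z}
    = unboundedComponent ({z : ℂ | 0 < z.im} \ γ '' Iic t)

/-- `γ` is (a realisation of) the chordal SLE(κ) trace from `0` to `∞` in the upper half-plane,
driven by `√κ B` for the standard Brownian motion `B` on the probability space `(Ω, P)`. -/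
structure IsChordalSLE (κ : ℝ) {Ω : Type} [MeasurableSpace Ω] (P : Measure Ω)
    (B : ℝ≥0 → Ω → ℝ) (γ : Ω → ℝ≥0 → ℂ) : Prop where
  brownian : IsBrownianReal B P
  trace : ∀ᵐ ω ∂P, IsLoewnerTrace (fun t => Real.sqrt κ * B t ω) (γ ω)

/-- `h` is an exact gauge for SLE(κ) in the sense of Schramm's problem: `h` is a gauge and for every
realisation of the trace, almost surely `0 < ℋ^h(γ([s, t])) < ∞` for all `0 < s < t < ∞`. -/
def IsExactGauge (κ : ℝ) (h : ℝ → ℝ) : Prop :=
  IsGauge h ∧ ∀ (Ω : Type) [MeasurableSpace Ω] (P : Measure Ω) (B : ℝ≥0 → Ω → ℝ)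
    (γ : Ω → ℝ≥0 → ℂ), IsChordalSLE κ P B γ →
      ∀ᵐ ω ∂P, ∀ s t : ℝ≥0, 0 < s → s < t →
        0 < gaugeMeasure h (γ ω '' Icc s t) ∧ gaugeMeasure h (γ ω '' Icc s t) < ⊤

end Vale.Agent.Lib.P164
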