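import Vale.Agent.Lib.P164.Defs

namespace Vale.Agent.Lib.P164

open MeasureTheory ProbabilityTheory Set Metric
open scoped NNReal ENNReal Pointwise

/-- one inequality for the behaviour of `mkMetric` under a dilation of `ℂ` -/
lemma mkMetric_smul_le (m : ℝ≥0∞ → ℝ≥0∞) (c : ℂ) (hc : c ≠ 0) (E : Set ℂ) :
    (Measure.mkMetric m : Measure ℂ) (c • E)
      ≤ (Measure.mkMetric (fun x => m ((‖c‖₊ : ℝ≥0∞) * x)) : Measure ℂ) E := by
  rw [Measure.mkMetric_apply, Measure.mkMetric_apply]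
  have hc0 : (‖c‖₊ : ℝ≥0∞) ≠ 0 := by simpa using hc
  have hct : (‖c‖₊ : ℝ≥0∞) ≠ ⊤ := ENNReal.coe_ne_top
  refine iSup₂_le fun r hr => ?_
  refine le_iSup₂_of_le (r / (‖c‖₊ : ℝ≥0∞)) (ENNReal.div_pos hr.ne' hct) ?_
  refine le_iInf fun t => le_iInf fun ht => le_iInf fun hd => ?_
  refine iInf_le_of_le (fun n => c • t n) ?_
  refine iInf_le_of_le ?_ ?_
  · calc c • E ⊆ c • ⋃ n, t n := Set.smul_set_mono ht
      _ = ⋃ n, c • t n := Set.smul_set_iUnion _ _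
  refine iInf_le_of_le ?_ ?_
  · intro n
    rw [ediam_smul₀, ENNReal.smul_def, smul_eq_mul]
    calc (‖c‖₊ : ℝ≥0∞) * ediam (t n) ≤ (‖c‖₊ : ℝ≥0∞) * (r / (‖c‖₊ : ℝ≥0∞)) := by gcongr; exact hd n
      _ = r := ENNReal.mul_div_cancel hc0 hct
  · refine ENNReal.tsum_le_tsum fun n => ?_
    refine iSup_le fun hne => ?_
    have hne' : (t n).Nonempty := by
      rcases hne with ⟨x, hx⟩
      rcases Set.mem_smul_set.1 hx with ⟨y, hy, _⟩
      exact ⟨y, hy⟩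
    refine le_iSup_of_le hne' ?_
    rw [ediam_smul₀, ENNReal.smul_def, smul_eq_mul]

lemma mkMetric_smul_eq (m : ℝ≥0∞ → ℝ≥0∞) (c : ℂ) (hc : c ≠ 0) (E : Set ℂ) :
    (Measure.mkMetric m : Measure ℂ) (c • E)
      = (Measure.mkMetric (fun x => m ((‖c‖₊ : ℝ≥0∞) * x)) : Measure ℂ) E := by
  refine le_antisymm (mkMetric_smul_le m c hc E) ?_
  have h := mkMetric_smul_le (fun x => m ((‖c‖₊ : ℝ≥0∞) * x)) c⁻¹ (inv_ne_zero hc) (c • E)
  rw [inv_smul_smul₀ hc] at h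
  refine h.trans (le_of_eq ?_)
  congr 2
  funext x
  have hc0 : (‖c‖₊ : ℝ≥0∞) ≠ 0 := by simpa using hc
  have hct : (‖c‖₊ : ℝ≥0∞) ≠ ⊤ := ENNReal.coe_ne_top
  rw [← mul_assoc, nnnorm_inv, ENNReal.coe_inv (by simpa using hc), ENNReal.mul_inv_cancel hc0 hct,
    one_mul]

/-- scaling of the gauge measure -/
lemma gaugeMeasure_scale (h : ℝ → ℝ) (a : ℝ) (ha : 0 < a) (E : Set ℂ) :
    gaugeMeasure (fun r => h (a * r)) E = gaugeMeasure h ((a : ℂ) • E) := by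
  unfold gaugeMeasure
  rw [mkMetric_smul_eq _ (a : ℂ) (by exact_mod_cast ha.ne')]
  congr 2
  funext x
  have hn : (‖(a : ℂ)‖₊ : ℝ≥0∞) = ENNReal.ofReal a := by
    rw [ENNReal.ofReal, ← Real.toNNReal_coe (r := ‖(a : ℂ)‖₊)]
    congr 2
    simp [abs_of_pos ha]
  rw [hn]
  by_cases hx : x = ⊤
  · subst hx
    have : ENNReal.ofReal a * ⊤ = ⊤ := ENNReal.mul_top (by simpa using ha)
    simp [this]
  · have h1 : ENNReal.ofReal a * x ≠ ⊤ := ENNReal.mul_ne_top ENNReal.ofReal_ne_top hx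
    simp only [hx, h1, if_false]
    rw [ENNReal.toReal_mul, ENNReal.toReal_ofReal ha.le]

end Vale.Agent.Lib.P164
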