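import Vale.Agent.Lib.P164.GaugeScale

namespace Vale.Agent.Lib.P164

open MeasureTheory ProbabilityTheory Set Metric
open scoped NNReal ENNReal Pointwise

/-- the rescaled driving function -/
noncomputable def scaleW (c : ℝ≥0) (W : ℝ≥0 → ℝ) : ℝ≥0 → ℝ := fun t => (√(c : ℝ))⁻¹ * W (c * t)

lemma survives_scale (c : ℝ≥0) (hc : c ≠ 0) (W : ℝ≥0 → ℝ) (t : ℝ≥0) (z : ℂ)
    (h : Survives W (c * t) z) : Survives (scaleW c W) t (((√(c : ℝ))⁻¹ : ℝ) * z) := by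
  obtain ⟨u, hu0, hu⟩ := h
  have hcpos : (0 : ℝ) < c := by
    have : 0 < c := pos_of_ne_zero hc
    exact_mod_cast this
  set a : ℝ := (√(c : ℝ))⁻¹ with ha
  have hapos : 0 < a := inv_pos.2 (Real.sqrt_pos.2 hcpos)
  have hac : a * a * c = 1 := by
    rw [ha]
    have := Real.mul_self_sqrt hcpos.le
    have h0 : √(c : ℝ) ≠ 0 := (Real.sqrt_pos.2 hcpos).ne'
    field_simp
    nlinarith
  refine ⟨fun s => (a : ℂ) * u (c * s), by simp [hu0], ?_⟩
  intro s hs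
  have hs' : (c : ℝ) * s ∈ Icc (0 : ℝ) ((c * t : ℝ≥0) : ℝ) := by
    constructor
    · exact mul_nonneg hcpos.le hs.1
    · push_cast
      exact mul_le_mul_of_nonneg_left hs.2 hcpos.le
  obtain ⟨him, hder⟩ := hu _ hs'
  refine ⟨?_, ?_⟩
  · simp only [Complex.mul_im, Complex.ofReal_re, Complex.ofReal_im, zero_mul, add_zero]
    exact mul_pos hapos him
  · have hmaps : MapsTo (fun s : ℝ => (c : ℝ) * s) (Icc (0 : ℝ) t) (Icc (0 : ℝ) ((c * t : ℝ≥0) : ℝ)) := by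
      intro x hx
      constructor
      · exact mul_nonneg hcpos.le hx.1
      · push_cast
        exact mul_le_mul_of_nonneg_left hx.2 hcpos.le
    have hlin : HasDerivWithinAt (fun s : ℝ => (c : ℝ) * s) (c : ℝ) (Icc (0 : ℝ) t) s := by
      simpa using ((hasDerivAt_id s).const_mul (c : ℝ)).hasDerivWithinAt
    have hcomp := hder.scomp s hlin hmaps
    have hfin := hcomp.const_mul (a : ℂ)
    refine HasDerivWithinAt.congr_deriv hfin ?_
    have hW : scaleW c W s.toNNReal = a * W ((c : ℝ) * s).toNNReal := by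
      unfold scaleW
      rw [Real.toNNReal_mul hcpos.le, Real.toNNReal_coe]
    rw [hW]
    have hne : u (c * s) - (W ((c : ℝ) * s).toNNReal : ℂ) ≠ 0 := by
      intro h0
      have := congrArg Complex.im h0
      simp at this
      exact him.ne' this
    have haC : (a : ℂ) ≠ 0 := by exact_mod_cast hapos.ne'
    have hacC : (a : ℂ) * a * c = 1 := by exact_mod_cast hac
    push_cast
    rw [Complex.real_smul]
    have e1 : (a : ℂ) * u (c * s) - a * (W ((c : ℝ) * s).toNNReal : ℂ)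
        = a * (u (c * s) - (W ((c : ℝ) * s).toNNReal : ℂ)) := by ring
    rw [e1]
    field_simp
    linear_combination hacC


lemma sqrt_inv_inv (c : ℝ≥0) : (√((c⁻¹ : ℝ≥0) : ℝ))⁻¹ = √(c : ℝ) := by
  push_cast
  rw [Real.sqrt_inv, inv_inv]

lemma scaleW_inv (c : ℝ≥0) (hc : c ≠ 0) (W : ℝ≥0 → ℝ) : scaleW c⁻¹ (scaleW c W) = W := by
  funext t
  have hcpos : (0 : ℝ) < c := by
    have : 0 < c := pos_of_ne_zero hc
    exact_mod_cast this
  unfold scaleW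
  rw [sqrt_inv_inv, ← mul_assoc, mul_inv_cancel₀ (Real.sqrt_pos.2 hcpos).ne', one_mul,
    ← mul_assoc, mul_inv_cancel₀ hc, one_mul]

lemma survives_scale_iff (c : ℝ≥0) (hc : c ≠ 0) (W : ℝ≥0 → ℝ) (t : ℝ≥0) (z : ℂ) :
    Survives (scaleW c W) t (((√(c : ℝ))⁻¹ : ℝ) * z) ↔ Survives W (c * t) z := by
  refine ⟨fun h => ?_, survives_scale c hc W t z⟩
  have hcpos : (0 : ℝ) < c := by
    have : 0 < c := pos_of_ne_zero hc
    exact_mod_cast this
  have h1 : Survives (scaleW c W) (c⁻¹ * (c * t)) (((√(c : ℝ))⁻¹ : ℝ) * z) := by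
    rw [← mul_assoc, inv_mul_cancel₀ hc, one_mul]; exact h
  have h2 := survives_scale c⁻¹ (inv_ne_zero hc) (scaleW c W) (c * t) _ h1
  rw [scaleW_inv c hc, sqrt_inv_inv, ← mul_assoc] at h2
  have h3 : ((√(c : ℝ) : ℝ) : ℂ) * (((√(c : ℝ))⁻¹ : ℝ) : ℂ) = 1 := by
    rw [← Complex.ofReal_mul, mul_inv_cancel₀ (Real.sqrt_pos.2 hcpos).ne', Complex.ofReal_one]
  rwa [h3, one_mul] at h2

lemma isBounded_smul_iff (a : ℂ) (ha : a ≠ 0) (S : Set ℂ) :
    Bornology.IsBounded (a • S) ↔ Bornology.IsBounded S := by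
  refine ⟨fun h => ?_, fun h => h.smul₀ a⟩
  have := h.smul₀ a⁻¹
  rwa [inv_smul_smul₀ ha] at this

lemma unboundedComponent_smul (a : ℂ) (ha : a ≠ 0) (U : Set ℂ) :
    unboundedComponent (a • U) = a • unboundedComponent U := by
  have key : ∀ x ∈ U, connectedComponentIn (a • U) (a • x) = a • connectedComponentIn U x := by
    intro x hx
    have := (Homeomorph.smulOfNeZero a ha).image_connectedComponentIn hx
    have e : ∀ S : Set ℂ, (Homeomorph.smulOfNeZero a ha) '' S = a • S := fun S => rfl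
    rw [e, e] at this
    exact this.symm
  ext z
  rw [Set.mem_smul_set_iff_inv_smul_mem₀ ha]
  unfold unboundedComponent
  simp only [Set.mem_ofPred_eq]
  rw [Set.mem_smul_set_iff_inv_smul_mem₀ ha]
  constructor
  · rintro ⟨h1, h2⟩
    refine ⟨h1, fun hb => h2 ?_⟩
    have := key _ h1
    rw [smul_inv_smul₀ ha] at this
    rw [this, isBounded_smul_iff a ha]
    exact hb
  · rintro ⟨h1, h2⟩
    refine ⟨h1, fun hb => h2 ?_⟩
    have := key _ h1
    rw [smul_inv_smul₀ ha] at this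
    rw [this, isBounded_smul_iff a ha] at hb
    exact hb

/-- the rescaled curve -/
noncomputable def scaleCurve (c : ℝ≥0) (γ : ℝ≥0 → ℂ) : ℝ≥0 → ℂ :=
  fun t => (((√(c : ℝ))⁻¹ : ℝ) : ℂ) * γ (c * t)

lemma image_scaleCurve_Iic (c : ℝ≥0) (hc : c ≠ 0) (γ : ℝ≥0 → ℂ) (t : ℝ≥0) :
    scaleCurve c γ '' Iic t = (((√(c : ℝ))⁻¹ : ℝ) : ℂ) • (γ '' Iic (c * t)) := by
  have hc0 : 0 < c := pos_of_ne_zero hc
  ext z
  simp only [Set.mem_image, Set.mem_smul_set, Set.mem_Iic, scaleCurve, smul_eq_mul]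
  constructor
  · rintro ⟨s, hs, rfl⟩
    exact ⟨γ (c * s), ⟨c * s, mul_le_mul_of_nonneg_left hs hc0.le, rfl⟩, rfl⟩
  · rintro ⟨w, ⟨s, hs, rfl⟩, rfl⟩
    refine ⟨c⁻¹ * s, ?_, ?_⟩
    · calc c⁻¹ * s ≤ c⁻¹ * (c * t) := mul_le_mul_of_nonneg_left hs (inv_nonneg.2 hc0.le)
        _ = t := by rw [← mul_assoc, inv_mul_cancel₀ hc, one_mul]
    · rw [← mul_assoc, mul_inv_cancel₀ hc, one_mul]

lemma image_scaleCurve_Icc (c : ℝ≥0) (hc : c ≠ 0) (γ : ℝ≥0 → ℂ) (s t : ℝ≥0) :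
    scaleCurve c γ '' Icc s t = (((√(c : ℝ))⁻¹ : ℝ) : ℂ) • (γ '' Icc (c * s) (c * t)) := by
  have hc0 : 0 < c := pos_of_ne_zero hc
  ext z
  simp only [Set.mem_image, Set.mem_smul_set, Set.mem_Icc, scaleCurve, smul_eq_mul]
  constructor
  · rintro ⟨r, hr, rfl⟩
    exact ⟨γ (c * r), ⟨c * r, ⟨mul_le_mul_of_nonneg_left hr.1 hc0.le,
      mul_le_mul_of_nonneg_left hr.2 hc0.le⟩, rfl⟩, rfl⟩
  · rintro ⟨w, ⟨r, hr, rfl⟩, rfl⟩
    refine ⟨c⁻¹ * r, ⟨?_, ?_⟩, ?_⟩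
    · calc s = c⁻¹ * (c * s) := by rw [← mul_assoc, inv_mul_cancel₀ hc, one_mul]
        _ ≤ c⁻¹ * r := mul_le_mul_of_nonneg_left hr.1 (inv_nonneg.2 hc0.le)
    · calc c⁻¹ * r ≤ c⁻¹ * (c * t) := mul_le_mul_of_nonneg_left hr.2 (inv_nonneg.2 hc0.le)
        _ = t := by rw [← mul_assoc, inv_mul_cancel₀ hc, one_mul]
    · rw [← mul_assoc, mul_inv_cancel₀ hc, one_mul]

theorem IsLoewnerTrace.scale {W : ℝ≥0 → ℝ} {γ : ℝ≥0 → ℂ} (h : IsLoewnerTrace W γ)
    (c : ℝ≥0) (hc : c ≠ 0) : IsLoewnerTrace (scaleW c W) (scaleCurve c γ) := by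
  have hcpos : (0 : ℝ) < c := by
    have : 0 < c := pos_of_ne_zero hc
    exact_mod_cast this
  set a : ℝ := (√(c : ℝ))⁻¹ with ha
  have hapos : 0 < a := inv_pos.2 (Real.sqrt_pos.2 hcpos)
  have haC : (a : ℂ) ≠ 0 := by exact_mod_cast hapos.ne'
  have him : ∀ z : ℂ, ((a : ℂ)⁻¹ • z).im = a⁻¹ * z.im := by
    intro z
    rw [smul_eq_mul, ← Complex.ofReal_inv]
    simp
  refine ⟨?_, ?_, ?_⟩
  · unfold scaleCurve
    have := h.cont
    fun_prop
  · intro t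
    unfold scaleCurve
    simp only [Complex.mul_im, Complex.ofReal_re, Complex.ofReal_im, zero_mul, add_zero]
    exact mul_nonneg hapos.le (h.im_nonneg _)
  · intro t
    rw [image_scaleCurve_Iic c hc]
    have e1 : ({z : ℂ | 0 < z.im} \ ((a : ℂ) • (γ '' Iic (c * t))))
        = (a : ℂ) • ({z : ℂ | 0 < z.im} \ γ '' Iic (c * t)) := by
      ext z
      rw [Set.mem_smul_set_iff_inv_smul_mem₀ haC]
      simp only [Set.mem_sdiff, Set.mem_ofPred_eq]
      rw [Set.mem_smul_set_iff_inv_smul_mem₀ haC, him]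
      constructor
      · rintro ⟨h1, h2⟩
        exact ⟨mul_pos (inv_pos.2 hapos) h1, h2⟩
      · rintro ⟨h1, h2⟩
        exact ⟨(mul_pos_iff_of_pos_left (inv_pos.2 hapos)).1 h1, h2⟩
    rw [e1, unboundedComponent_smul _ haC, ← h.hull (c * t)]
    ext z
    rw [Set.mem_smul_set_iff_inv_smul_mem₀ haC]
    simp only [Set.mem_ofPred_eq]
    rw [him, ← survives_scale_iff c hc W t, ← ha, smul_eq_mul, ← mul_assoc, mul_inv_cancel₀ haC,
      one_mul]
    constructor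
    · rintro ⟨h1, h2⟩
      exact ⟨mul_pos (inv_pos.2 hapos) h1, h2⟩
    · rintro ⟨h1, h2⟩
      exact ⟨(mul_pos_iff_of_pos_left (inv_pos.2 hapos)).1 h1, h2⟩

end Vale.Agent.Lib.P164
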